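import Vale.Agent.P235.Main

/-- A finite connected graph `G` with positive edge lengths `l` that becomes a forest after
deleting a vertex set `A` embeds into a finite dimensional `l1` space with distortion at most
`2 * |A| + 8`, for the shortest path metric `wdist G l`. -/
theorem Vale.Agent.Results.P235.FeedbackVertex.result
    (V : Type) [Fintype V] (G : SimpleGraph V) (hG : G.Connected) (l : Sym2 V → ℝ)
    (hl : ∀ e ∈ G.edgeSet, 0 < l e) (A : Finset V)
    (hA : (G.induce {v | v ∉ A}).IsAcyclic) :
    ∃ (n : ℕ) (f : V → Fin n → ℝ), ∀ x y : V,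
      Vale.Agent.P235.wdist G l x y ≤ ∑ i, |f x i - f y i| ∧
      ∑ i, |f x i - f y i| ≤ (2 * (A.card : ℝ) + 8) * Vale.Agent.P235.wdist G l x y := by
  classical
  exact Vale.Agent.P235.main G hG l hl A hA
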